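import Vale.Agent.P181.BK.Spec

/-!
P181, row G: the relation of the array map, when no special group can be placed in a row.
-/

set_option autoImplicit false

open scoped TensorProduct

namespace Vale.Agent.P181.BK

open Vale.Agent.P181 Vale.Agent.P181.H280 Vale.Agent.P181.H179 Vale.Agent.P181.H530 Finset

namespace RG

/-- A permutation of a sum which sends some left element to the right sends some right element to
the left. -/
lemma exists_cross {X : Type} {u : ℕ} (π : Equiv.Perm (X ⊕ Fin u)) (x : X) (k : Fin u)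
    (h : π (Sum.inl x) = Sum.inr k) : ∃ k' y, π (Sum.inr k') = Sum.inl y := by
  by_contra hno
  push Not at hno
  have h1 : ∀ k', ∃ j, π (Sum.inr k') = Sum.inr j := by
    intro k'
    rcases hk : π (Sum.inr k') with y | j
    · exact absurd hk (hno k' y)
    · exact ⟨j, rfl⟩
  choose S hS using h1
  have hSinj : Function.Injective S := by
    intro j j' hj
    have h2 : π (Sum.inr j) = π (Sum.inr j') := by rw [hS, hS, hj]
    exact Sum.inr_injective (π.injective h2)
  obtain ⟨j, hj⟩ := Finite.injective_iff_surjective.1 hSinj k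
  have h3 : π (Sum.inl x) = π (Sum.inr j) := by rw [h, hS, hj]
  exact Sum.inl_ne_inr (π.injective h3)

/-- Sums over functions on a sum type which read only the right part. -/
lemma sum_right {X Y Z : Type} [Fintype X] [Fintype Y] [Fintype Z] [DecidableEq X] [DecidableEq Y]
    (F : (Y → Z) → ℂ) :
    ∑ G : X ⊕ Y → Z, F (fun j => G (Sum.inr j)) = (Fintype.card (X → Z) : ℂ) * ∑ τ : Y → Z, F τ := by
  rw [← Equiv.sum_comp (Equiv.sumArrowEquivProdArrow X Y Z).symm, Fintype.sum_prod_type]
  have h1 : ∀ (G1 : X → Z) (G2 : Y → Z),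
      F (fun j => (Equiv.sumArrowEquivProdArrow X Y Z).symm (G1, G2) (Sum.inr j)) = F G2 :=
    fun _ _ => rfl
  simp only [h1]
  rw [Finset.sum_const, Finset.card_univ, nsmul_eq_mul]

end RG

theorem rowG : RowG := by
  classical
  intro n a q u N Q l' hq ε E hE l h0 e fm ty c gz hc hsz hsp hinj ha hmeet hmeet2 ρ hρ
  -- the groups of the boxes
  obtain ⟨fm', hfm'⟩ : ∃ fm' : Box l' → Gp a q u, ∀ p, fm' p = Sum.map ρ id (fm p) :=
    ⟨_, fun _ => rfl⟩
  have hl : ∀ p x, fm p = Sum.inl x → fm' p = Sum.inl (ρ x) := by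
    intro p x hp
    rw [hfm', hp]
    rfl
  have hr : ∀ p k, fm p = Sum.inr k → fm' p = Sum.inr k := by
    intro p k hp
    rw [hfm', hp]
    rfl
  have hr' : ∀ p k, fm' p = Sum.inr k → fm p = Sum.inr k := by
    intro p k hp
    rcases hf : fm p with x | j
    · rw [hl p x hf] at hp
      exact absurd hp Sum.inl_ne_inr
    · rw [hr p j hf] at hp
      rw [Sum.inr_injective hp]
  have hcard : ∀ f, (univ.filter (fun p => fm' p = f)).card = a := by
    rintro (r | k)
    · have h1 : (univ.filter (fun p => fm' p = Sum.inl r)) =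
          (univ.filter (fun x : Fin a × Fin Q => ρ x = r)).biUnion
            (fun x => univ.filter (fun p => fm p = Sum.inl x)) := by
        ext p
        simp only [mem_filter, mem_univ, true_and, mem_biUnion]
        constructor
        · intro hp
          rcases hf : fm p with x | j
          · refine ⟨x, ?_, rfl⟩
            rw [hl p x hf] at hp
            exact Sum.inl_injective hp
          · rw [hr p j hf] at hp
            exact absurd hp.symm Sum.inl_ne_inr
        · rintro ⟨x, hx, hf⟩
          rw [hl p x hf, hx]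
      rw [h1, Finset.card_biUnion]
      · have h2 : ∀ x ∈ univ.filter (fun x : Fin a × Fin Q => ρ x = r),
            (univ.filter (fun p => fm p = Sum.inl x)).card = gz (ty x.2) :=
          fun x _ => hsz x.1 x.2
        rw [Finset.sum_congr rfl h2]
        have h3 : ∀ z, ∑ x ∈ univ.filter (fun x : Fin a × Fin Q => ρ x = r ∧ ty x.2 = z),
            gz (ty x.2) = c z * gz z := by
          intro z
          rw [← hρ r z, ← smul_eq_mul, ← Finset.sum_const]
          apply Finset.sum_congr rfl
          intro x hx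
          rw [mem_filter] at hx
          rw [hx.2.2]
        have h4 : univ.filter (fun x : Fin a × Fin Q => ρ x = r) =
            univ.filter (fun x : Fin a × Fin Q => ρ x = r ∧ ty x.2 = true) ∪
              univ.filter (fun x : Fin a × Fin Q => ρ x = r ∧ ty x.2 = false) := by
          ext x
          simp only [mem_union, mem_filter, mem_univ, true_and]
          cases ty x.2 <;> simp
        rw [h4, Finset.sum_union, h3, h3]
        · exact ha.symm
        · rw [Finset.disjoint_left]
          intro x hx hx'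
          rw [mem_filter] at hx hx'
          rw [hx.2.2] at hx'
          exact Bool.noConfusion hx'.2.2
      · intro x _ y _ hxy
        rw [Function.onFun, Finset.disjoint_left]
        intro p hp hp'
        rw [mem_filter] at hp hp'
        rw [hp.2] at hp'
        exact hxy (Sum.inl_injective hp'.2)
    · refine Eq.trans ?_ (hsp k)
      congr 1
      ext p
      simp only [mem_filter, mem_univ, true_and]
      exact ⟨hr' p k, hr p k⟩
  obtain ⟨β, hβ1, hβ2⟩ := exists_place fm' e hcard (fun f => ∃ k, f = Sum.inr k) (by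
    rintro p p' hp ⟨k, hk⟩ he
    exact hinj p p' k (hr' p k hk) (hr' p' k (hp.symm.trans hk)) he)
  have hPM := VV_rel E l h0 (β.trans (Equiv.prodCongr ε.symm (Equiv.refl (Fin a))))
  -- the values
  obtain ⟨val, hval⟩ : ∃ val : Equiv.Perm (Gp a q u) × (Gp a q u → Equiv.Perm (Fin a)) → ℂ,
      ∀ x, val x = VV (fullForm l) l'
        (fun p => Sum.elim Prod.fst (fun _ => x.2 (fm' p) (β p).2) (x.1 (fm' p))) :=
    ⟨_, fun _ => rfl⟩
  have hsum : ∑ x, val x = 0 := by
    rw [← hPM]
    symm
    apply Fintype.sum_equiv (Equiv.prodCongr ε.permCongr (Equiv.arrowCongr ε (Equiv.refl _)))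
    intro g
    rw [hval]
    congr 1
    funext p
    have h1 : (slot E g ((β.trans (Equiv.prodCongr ε.symm (Equiv.refl (Fin a)))) p)).1 =
        (E (g.2 (ε.symm (β p).1) (β p).2, g.1 (ε.symm (β p).1))).1 := rfl
    rw [h1, hE, hβ1]
    rfl
  rw [Fintype.sum_prod_type] at hsum
  -- no special group is placed in a row as a whole
  have hvan : ∀ (π : Equiv.Perm (Gp a q u)) (k : Fin u) (y : Fin a × Fin q)
      (G : Gp a q u → Equiv.Perm (Fin a)), π (Sum.inr k) = Sum.inl y → val (π, G) = 0 := by
    intro π k y G hk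
    obtain ⟨i, j⟩ := y
    obtain ⟨j', hj'⟩ : ∃ j' : Fin q, j' ≠ j := by
      have : Nontrivial (Fin q) := Fin.nontrivial_iff_two_le.2 hq
      exact exists_ne j
    have h8 : π (π.symm (Sum.inl (i, j'))) = Sum.inl (i, j') := Equiv.apply_symm_apply _ _
    have h9 : (Sum.inr k : Gp a q u) ≠ π.symm (Sum.inl (i, j')) := by
      intro h
      rw [h, h8] at hk
      have h10 := Sum.inl_injective hk
      exact hj' (congrArg Prod.snd h10)
    have h10 : ∃ t v w, fm' ⟨t, v⟩ = Sum.inr k ∧ fm' ⟨t, w⟩ = π.symm (Sum.inl (i, j')) := by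
      rcases hf : π.symm (Sum.inl (i, j')) with r | k'
      · obtain ⟨z, hz⟩ := hc
        rw [← hρ r z] at hz
        obtain ⟨x, hx⟩ := Finset.card_pos.1 (Nat.lt_of_lt_of_le Nat.zero_lt_one hz)
        rw [mem_filter] at hx
        obtain ⟨t, v, w, hv, hw⟩ := hmeet k x
        exact ⟨t, v, w, hr _ _ hv, by rw [hl _ _ hw, hx.2.1]⟩
      · obtain ⟨t, v, w, hv, hw⟩ := hmeet2 k k' (by
          rintro rfl
          exact h9 hf.symm)
        exact ⟨t, v, w, hr _ _ hv, hr _ _ hw⟩
    obtain ⟨t, v, w, hv, hw⟩ := h10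
    have hvw : v ≠ w := by
      rintro rfl
      exact h9 (hv.symm.trans hw)
    rw [hval]
    apply VV_anti _ _ t hvw
    simp only [hv, hw, hk, h8, Sum.elim_inl]
  -- the placements of the normal groups and of the special groups
  have hsum2 : ∑ x : Equiv.Perm (Fin a × Fin q) × Equiv.Perm (Fin u),
      ∑ G : Gp a q u → Equiv.Perm (Fin a), val (Equiv.Perm.sumCongr x.1 x.2, G) = 0 := by
    rw [← hsum]
    apply Fintype.sum_of_injective (fun x : Equiv.Perm (Fin a × Fin q) × Equiv.Perm (Fin u) =>
      Equiv.Perm.sumCongr x.1 x.2)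
    · exact Equiv.Perm.sumCongrHom_injective
    · intro π hπ
      apply Finset.sum_eq_zero
      intro G _
      by_contra hne
      apply hπ
      have h1 : Set.MapsTo π (Set.range Sum.inl) (Set.range Sum.inl) := by
        rintro _ ⟨x, rfl⟩
        rcases hx : π (Sum.inl x) with y | k
        · exact ⟨y, rfl⟩
        · obtain ⟨k', y, hy⟩ := RG.exists_cross π x k hx
          exact absurd (hvan π k' y G hy) hne
      obtain ⟨x, hx⟩ := Equiv.Perm.mem_sumCongrHom_range_of_perm_mapsTo_inl h1
      exact ⟨x, hx⟩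
    · intro x
      rfl
  have hval2 : ∀ (x : Equiv.Perm (Fin a × Fin q) × Equiv.Perm (Fin u))
      (G : Gp a q u → Equiv.Perm (Fin a)), val (Equiv.Perm.sumCongr x.1 x.2, G) =
      VV (fullForm l) l' (fun p => Sum.elim (fun y => (x.1 (ρ y)).1)
        (fun j => (fun j => G (Sum.inr j)) j (e p)) (fm p)) := by
    intro x G
    rw [hval]
    congr 1
    funext p
    rcases hf : fm p with y | j
    · rw [hl p y hf]
      rfl
    · have h1 := hr p j hf
      have h2 := hβ2 p ⟨j, h1⟩
      rw [h1, h2]
      rfl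
  have hsum3 : (Fintype.card (Equiv.Perm (Fin u)) : ℂ) *
      ((Fintype.card (Fin a × Fin q → Equiv.Perm (Fin a)) : ℂ) *
      ∑ σ : Equiv.Perm (Fin a × Fin q), ∑ τ : Fin u → Equiv.Perm (Fin a), VV (fullForm l) l'
        (fun p => Sum.elim (fun x => (σ (ρ x)).1) (fun j => τ j (e p)) (fm p))) = 0 := by
    rw [← hsum2, Fintype.sum_prod_type, Finset.mul_sum, Finset.mul_sum]
    apply Finset.sum_congr rfl
    intro σ _
    have h1 : ∀ θ : Equiv.Perm (Fin u), ∑ G : Gp a q u → Equiv.Perm (Fin a),
        val (Equiv.Perm.sumCongr σ θ, G) =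
        (Fintype.card (Fin a × Fin q → Equiv.Perm (Fin a)) : ℂ) *
          ∑ τ : Fin u → Equiv.Perm (Fin a), VV (fullForm l) l'
            (fun p => Sum.elim (fun x => (σ (ρ x)).1) (fun j => τ j (e p)) (fm p)) := by
      intro θ
      rw [← RG.sum_right (fun τ : Fin u → Equiv.Perm (Fin a) => VV (fullForm l) l'
            (fun p => Sum.elim (fun x => (σ (ρ x)).1) (fun j => τ j (e p)) (fm p)))]
      apply Finset.sum_congr rfl
      intro G _
      exact hval2 (σ, θ) G
    rw [Finset.sum_congr rfl (fun θ _ => h1 θ), Finset.sum_const, Finset.card_univ, nsmul_eq_mul]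
  have h1 : (Fintype.card (Equiv.Perm (Fin u)) : ℂ) ≠ 0 := by
    rw [Nat.cast_ne_zero]
    exact Fintype.card_ne_zero
  have h2 : (Fintype.card (Fin a × Fin q → Equiv.Perm (Fin a)) : ℂ) ≠ 0 := by
    rw [Nat.cast_ne_zero]
    exact Fintype.card_ne_zero
  exact (mul_eq_zero.1 ((mul_eq_zero.1 hsum3).resolve_left h1)).resolve_left h2

end Vale.Agent.P181.BK
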